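import Vale.Agent.Lib.P100.LapForm
import Vale.Agent.Lib.P100.CClean

/-!
# P100: a one-line nonexistence region for the Lane-Emden system, every `n >= 5`.

With `x = (n-2) p - 2`, `y = (n-2) q - 2` the critical hyperbola of the Lane-Emden system is exactly
`x y = n^2`.  Theorem: if `x, y > 0` and `x y + (x-y)^2/(x y) < n^2` there is no positive solution.
Proof: the pointwise certificate `Vale.Agent.Lib.P100.CF.clean_cert` and the cut-off argument
`Vale.Agent.Lib.P100.no_solution_of_cert_lap`.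
-/

open scoped BigOperators
open InnerProductSpace Laplacian

noncomputable section

namespace Vale.Agent.Results.P100.A_clean

open Vale.Agent.Lib.P100 Vale.Agent.Lib.P100.CF

/-- the case `y <= x` -/
theorem core {n : ℕ} (hn : 5 ≤ n) {p q : ℝ} (hp : 0 < p) (hq : 0 < q) (hpq : 1 < p * q)
    (hx : 0 < ((n : ℝ) - 2) * p - 2) (hy : 0 < ((n : ℝ) - 2) * q - 2)
    (hyx : ((n : ℝ) - 2) * q - 2 ≤ ((n : ℝ) - 2) * p - 2)
    (hclean : (((n : ℝ) - 2) * p - 2) * (((n : ℝ) - 2) * q - 2)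
        + (((n : ℝ) - 2) * p - 2 - (((n : ℝ) - 2) * q - 2)) ^ 2
          / ((((n : ℝ) - 2) * p - 2) * (((n : ℝ) - 2) * q - 2)) < (n : ℝ) ^ 2)
    {u v : EuclideanSpace ℝ (Fin n) → ℝ}
    (hucont : Continuous u) (hvcont : Continuous v)
    (hupos : ∀ x, 0 < u x) (hvpos : ∀ x, 0 < v x)
    (hu : ContDiffOn ℝ 2 u {0}ᶜ) (hv : ContDiffOn ℝ 2 v {0}ᶜ)
    (hpdeU : ∀ x, x ≠ 0 → - Δ u x = v x ^ p)
    (hpdeV : ∀ x, x ≠ 0 → - Δ v x = u x ^ q) : False := by
  have hnR : (5 : ℝ) ≤ n := by exact_mod_cast hn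
  have hn2 : 0 < (n : ℝ) - 2 := by linarith
  have hn2' : (n : ℝ) - 2 ≠ 0 := hn2.ne'
  set d : ℝ := 1 / ((n : ℝ) - 2) with hd'
  have hd : 0 < d := by rw [hd']; positivity
  have hd3 : d ≤ 1 / 3 := by
    rw [hd', div_le_div_iff₀ hn2 (by norm_num)]
    linarith
  have hnn : nn d = n := by
    unfold nn
    rw [hd']
    field_simp
    ring
  have h2 : 2 + 1 / d = n := by
    rw [hd']
    field_simp
    ring
  have hP : (((n : ℝ) - 2) * p - 2 + 2) * d = p := by
    rw [hd']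
    field_simp
    ring
  have hQ : (((n : ℝ) - 2) * q - 2 + 2) * d = q := by
    rw [hd']
    field_simp
    ring
  have hcl : (((n : ℝ) - 2) * p - 2) * (((n : ℝ) - 2) * q - 2)
        + (((n : ℝ) - 2) * p - 2 - (((n : ℝ) - 2) * q - 2)) ^ 2
          / ((((n : ℝ) - 2) * p - 2) * (((n : ℝ) - 2) * q - 2)) < nn d ^ 2 := by
    rw [hnn]
    exact hclean
  obtain ⟨c, c0, hc0, hc⟩ := clean_cert hd hd3 hx hy hyx hcl
  rw [h2, hP, hQ] at hc
  have hdet : 0 < p * q - 1 := by linarith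
  have hdet' : p * q - 1 ≠ 0 := hdet.ne'
  have ha0 : 0 < 1 - d := by linarith
  set a := 1 - d with ha
  have hl : 0 < a * (1 + q) / (p * q - 1) := by positivity
  have hm : 0 < a * (1 + p) / (p * q - 1) := by positivity
  have hn4 : 4 < n := by omega
  refine no_solution_of_cert_lap (lam := a * (1 + q) / (p * q - 1)) (mu := a * (1 + p) / (p * q - 1))
    hn4 hc hc0 ?_ ?_ hl.le hm.le ?_ hucont hvcont hupos hvpos hu hv hpdeU hpdeV
  · have e : a * (1 + p) / (p * q - 1) * q - a * (1 + q) / (p * q - 1) =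
        a * ((p * q - 1) / (p * q - 1)) := by ring
    rw [e, div_self hdet', mul_one]
  · have e : a * (1 + q) / (p * q - 1) * p - a * (1 + p) / (p * q - 1) =
        a * ((p * q - 1) / (p * q - 1)) := by ring
    rw [e, div_self hdet', mul_one]
  · -- the exponent condition
    have hxy0 : 0 < (((n : ℝ) - 2) * p - 2) * (((n : ℝ) - 2) * q - 2) := by positivity
    have hlt : (((n : ℝ) - 2) * p - 2) * (((n : ℝ) - 2) * q - 2) < (n : ℝ) ^ 2 := by
      have : 0 ≤ (((n : ℝ) - 2) * p - 2 - (((n : ℝ) - 2) * q - 2)) ^ 2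
          / ((((n : ℝ) - 2) * p - 2) * (((n : ℝ) - 2) * q - 2)) := by positivity
      linarith
    have hS : ((n : ℝ) - 2) * (p * q - 1) < 2 * (p + q + 2) := by
      have h3 : ((n : ℝ) - 2) * (((n : ℝ) - 2) * (p * q - 1) - 2 * (p + q + 2)) < 0 := by
        nlinarith
      by_contra hc'
      push Not at hc'
      nlinarith [mul_nonneg hn2.le (by linarith : 0 ≤ ((n : ℝ) - 2) * (p * q - 1) - 2 * (p + q + 2))]
    have e : a * ((n : ℝ) - 2) = (n : ℝ) - 3 := by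
      rw [ha, hd']
      field_simp
      ring
    have e2 : 2 * (a * (1 + q) / (p * q - 1) + a * (1 + p) / (p * q - 1)) =
        a * (2 * (p + q + 2)) / (p * q - 1) := by
      field_simp
      ring
    rw [e2]
    have : (n : ℝ) - 4 < a * (2 * (p + q + 2)) / (p * q - 1) := by
      rw [lt_div_iff₀ hdet]
      have h3 : a * (((n : ℝ) - 2) * (p * q - 1)) < a * (2 * (p + q + 2)) :=
        mul_lt_mul_of_pos_left hS ha0
      have h4 : a * (((n : ℝ) - 2) * (p * q - 1)) = ((n : ℝ) - 3) * (p * q - 1) := by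
        rw [← e]; ring
      nlinarith
    linarith

/-- **Theorem.** Let `n >= 5`, `p, q > 0`, `p q > 1`, `x = (n-2) p - 2 > 0`, `y = (n-2) q - 2 > 0`
and `x y + (x-y)^2/(x y) < n^2`.  Then `-Δ u = v^p`, `-Δ v = u^q` has no solution `u, v` positive and
continuous on `ℝⁿ`, `C²` on `ℝⁿ \ {0}`, satisfying the equations off the origin. -/
theorem result {n : ℕ} (hn : 5 ≤ n) {p q : ℝ} (hp : 0 < p) (hq : 0 < q) (hpq : 1 < p * q)
    (hx : 0 < ((n : ℝ) - 2) * p - 2) (hy : 0 < ((n : ℝ) - 2) * q - 2)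
    (hclean : (((n : ℝ) - 2) * p - 2) * (((n : ℝ) - 2) * q - 2)
        + (((n : ℝ) - 2) * p - 2 - (((n : ℝ) - 2) * q - 2)) ^ 2
          / ((((n : ℝ) - 2) * p - 2) * (((n : ℝ) - 2) * q - 2)) < (n : ℝ) ^ 2)
    {u v : EuclideanSpace ℝ (Fin n) → ℝ}
    (hucont : Continuous u) (hvcont : Continuous v)
    (hupos : ∀ x, 0 < u x) (hvpos : ∀ x, 0 < v x)
    (hu : ContDiffOn ℝ 2 u {0}ᶜ) (hv : ContDiffOn ℝ 2 v {0}ᶜ)
    (hpdeU : ∀ x, x ≠ 0 → - Δ u x = v x ^ p)
    (hpdeV : ∀ x, x ≠ 0 → - Δ v x = u x ^ q) : False := by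
  by_cases hyx : ((n : ℝ) - 2) * q - 2 ≤ ((n : ℝ) - 2) * p - 2
  · exact core hn hp hq hpq hx hy hyx hclean hucont hvcont hupos hvpos hu hv hpdeU hpdeV
  · push Not at hyx
    refine core hn hq hp (by linarith [mul_comm p q]) hy hx hyx.le ?_ hvcont hucont hvpos hupos hv hu
      hpdeV hpdeU
    have e1 : (((n : ℝ) - 2) * q - 2) * (((n : ℝ) - 2) * p - 2) =
        (((n : ℝ) - 2) * p - 2) * (((n : ℝ) - 2) * q - 2) := by ring
    have e2 : (((n : ℝ) - 2) * q - 2 - (((n : ℝ) - 2) * p - 2)) ^ 2 =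
        (((n : ℝ) - 2) * p - 2 - (((n : ℝ) - 2) * q - 2)) ^ 2 := by ring
    rw [e1, e2]
    exact hclean

end Vale.Agent.Results.P100.A_clean
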