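import Vale.Agent.Lib.P100.LapForm
import Vale.Agent.Lib.P100.CFamily

/-!
# P100: a nonexistence region for the Lane-Emden system in every dimension `n >= 5`.

The region is a union of boxes indexed by a real parameter `ρ > 1`; the corners of the boxes stay
within a dimension-free distance of the critical hyperbola.  Proof: the pointwise certificate
`Vale.Agent.Lib.P100.CF.region_cert` (a sum of squares with an exact double root at `X/Y = ρ`) and
the cut-off argument `Vale.Agent.Lib.P100.no_solution_of_cert_lap`.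
-/

open scoped BigOperators
open InnerProductSpace Laplacian

noncomputable section

namespace Vale.Agent.Results.P100.A_double_root

open Vale.Agent.Lib.P100 Vale.Agent.Lib.P100.CF

/-- `d = 1/(n-2)`. -/
def dn (n : ℕ) : ℝ := 1 / ((n : ℝ) - 2)

/-- `F0 = (1+d)(1+4d)/(2(1+3d))`. -/
def F0 (d : ℝ) : ℝ := (1 + d) * (1 + 4 * d) / (2 * (1 + 3 * d))

/-- `F(r) = F0 + (r-1) l` with `l = d (2+9d+10d²-d³) / (2 (1+3d) (1+2d-d²))`. -/
def F (d r : ℝ) : ℝ :=
  F0 d + (r - 1) * (d * (2 + 9 * d + 10 * d ^ 2 - d ^ 3) / (2 * (1 + 3 * d) * (1 + 2 * d - d ^ 2)))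

/-- `G0(ρ) = ρ² ((1+d)² ρ + (1-d)(1+3d)) / ((1-d)(1+3d) ρ + (1+d)²)`. -/
def G0 (d ρ : ℝ) : ℝ :=
  ρ ^ 2 * ((1 + d) ^ 2 * ρ + (1 - d) * (1 + 3 * d)) / ((1 - d) * (1 + 3 * d) * ρ + (1 + d) ^ 2)

/-- The box with parameter `ρ`: with `κ = (1+d)/(1+2d) = 1 - 1/n`, `ν = d/(1+2d) = 1/n`,
`(κ p - 2 ν F(ρ))² < 4 F0 G0(ρ) F(1/ρ)` and `G0(ρ) (κ q - 2 ν F(1/ρ))² < 4 F0 F(ρ)`. -/
def Box (n : ℕ) (ρ p q : ℝ) : Prop :=
  ((1 + dn n) / (1 + 2 * dn n) * p - 2 * (dn n / (1 + 2 * dn n)) * F (dn n) ρ) ^ 2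
      < 4 * (F0 (dn n) * (G0 (dn n) ρ * F (dn n) (1 / ρ))) ∧
  G0 (dn n) ρ * ((1 + dn n) / (1 + 2 * dn n) * q - 2 * (dn n / (1 + 2 * dn n)) * F (dn n) (1 / ρ)) ^ 2
      < 4 * (F0 (dn n) * F (dn n) ρ)

/-- A positive entire solution of the Lane-Emden system, exactly as in the problem file with
`A = B = 0`: `u, v` continuous and positive on `ℝⁿ`, `C²` off the origin, equations off the origin. -/
structure IsPositiveEntireSolution (n : ℕ) (p q : ℝ) (u v : EuclideanSpace ℝ (Fin n) → ℝ) : Prop where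
  ucont : Continuous u
  vcont : Continuous v
  upos : ∀ x, 0 < u x
  vpos : ∀ x, 0 < v x
  uC2 : ContDiffOn ℝ 2 u {0}ᶜ
  vC2 : ContDiffOn ℝ 2 v {0}ᶜ
  ueq : ∀ x, x ≠ 0 → - Δ u x = v x ^ p
  veq : ∀ x, x ≠ 0 → - Δ v x = u x ^ q

/-- the solution class is symmetric -/
theorem IsPositiveEntireSolution.swap {n : ℕ} {p q : ℝ} {u v : EuclideanSpace ℝ (Fin n) → ℝ}
    (h : IsPositiveEntireSolution n p q u v) : IsPositiveEntireSolution n q p v u :=
  ⟨h.vcont, h.ucont, h.vpos, h.upos, h.vC2, h.uC2, h.veq, h.ueq⟩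

theorem dn_pos {n : ℕ} (hn : 5 ≤ n) : 0 < dn n := by
  have h : (5 : ℝ) ≤ n := by exact_mod_cast hn
  unfold dn
  apply div_pos one_pos
  linarith

theorem dn_le {n : ℕ} (hn : 5 ≤ n) : dn n ≤ 1 / 3 := by
  have h : (5 : ℝ) ≤ n := by exact_mod_cast hn
  unfold dn
  rw [div_le_div_iff₀ (by linarith) (by norm_num)]
  linarith

theorem two_add_inv {n : ℕ} (hn : 5 ≤ n) : 2 + 1 / dn n = n := by
  have h : (5 : ℝ) ≤ n := by exact_mod_cast hn
  unfold dn
  have : (n : ℝ) - 2 ≠ 0 := by linarith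
  field_simp
  ring

theorem F0_eq (d : ℝ) : F0 d = fF0 d := rfl
theorem F_eq (d r : ℝ) : F d r = fF d r := by
  simp only [F, fF, F0, fF0, fl, fY, fZ]
theorem G0_eq (d ρ : ℝ) : G0 d ρ = fG d ρ := by
  simp only [G0, fG, fR]

/-- The core case `ρ > 1`, box around `(p,q)`. -/
theorem no_solution_box {n : ℕ} (hn : 5 ≤ n) {p q ρ : ℝ} (hp : 0 < p) (hq : 0 < q)
    (hpq : 1 < p * q) (hsub : (n : ℝ) - 2 < n / (p + 1) + n / (q + 1)) (hρ : 1 < ρ)
    (hB : Box n ρ p q) {u v : EuclideanSpace ℝ (Fin n) → ℝ}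
    (hs : IsPositiveEntireSolution n p q u v) : False := by
  have hd := dn_pos hn
  have hd3 := dn_le hn
  have hnR : (5 : ℝ) ≤ n := by exact_mod_cast hn
  obtain ⟨hB1, hB2⟩ := hB
  simp only [F0_eq, F_eq, G0_eq] at hB1 hB2
  obtain ⟨c, c0, hc0, hc⟩ := region_cert (p := p) (q := q) hd hd3 hρ hB1 hB2
  rw [two_add_inv hn] at hc
  have hdet : 0 < p * q - 1 := by linarith
  have hdet' : p * q - 1 ≠ 0 := hdet.ne'
  have ha0 : 0 < 1 - dn n := by linarith
  set a := 1 - dn n with ha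
  have hl : 0 < a * (1 + q) / (p * q - 1) := by positivity
  have hm : 0 < a * (1 + p) / (p * q - 1) := by positivity
  have hn4 : 4 < n := by omega
  refine no_solution_of_cert_lap (lam := a * (1 + q) / (p * q - 1)) (mu := a * (1 + p) / (p * q - 1))
    hn4 hc hc0 ?_ ?_ hl.le hm.le ?_ hs.ucont hs.vcont hs.upos hs.vpos hs.uC2 hs.vC2 hs.ueq hs.veq
  · have e : a * (1 + p) / (p * q - 1) * q - a * (1 + q) / (p * q - 1) =
        a * ((p * q - 1) / (p * q - 1)) := by ring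
    rw [e, div_self hdet', mul_one]
  · have e : a * (1 + q) / (p * q - 1) * p - a * (1 + p) / (p * q - 1) =
        a * ((p * q - 1) / (p * q - 1)) := by ring
    rw [e, div_self hdet', mul_one]
  · -- the exponent condition
    have hS : ((n : ℝ) - 2) * (p * q - 1) < 2 * (p + q + 2) := by
      have h1 : (n : ℝ) / (p + 1) + n / (q + 1) = n * (p + q + 2) / ((p + 1) * (q + 1)) := by
        field_simp
        ring
      rw [h1, lt_div_iff₀ (by positivity)] at hsub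
      nlinarith
    have e : a * ((n : ℝ) - 2) = (n : ℝ) - 3 := by
      rw [ha]
      unfold dn
      have : (n : ℝ) - 2 ≠ 0 := by linarith
      field_simp
      ring
    have e2 : 2 * (a * (1 + q) / (p * q - 1) + a * (1 + p) / (p * q - 1)) =
        a * (2 * (p + q + 2)) / (p * q - 1) := by
      field_simp
      ring
    rw [e2]
    have : (n : ℝ) - 4 < a * (2 * (p + q + 2)) / (p * q - 1) := by
      rw [lt_div_iff₀ hdet]
      have h3 : a * (((n : ℝ) - 2) * (p * q - 1)) < a * (2 * (p + q + 2)) :=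
        mul_lt_mul_of_pos_left hS ha0
      have h4 : a * (((n : ℝ) - 2) * (p * q - 1)) = ((n : ℝ) - 3) * (p * q - 1) := by
        rw [← e]; ring
      nlinarith
    linarith

/-- **Theorem.** Let `n >= 5`, `p, q > 0`, `pq > 1`, subcritical. If for some `ρ > 1` the point
`(p,q)` or the point `(q,p)` lies in `Box n ρ`, then the Lane-Emden system has no positive entire
solution. -/
theorem result {n : ℕ} (hn : 5 ≤ n) {p q ρ : ℝ} (hp : 0 < p) (hq : 0 < q) (hpq : 1 < p * q)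
    (hsub : (n : ℝ) - 2 < n / (p + 1) + n / (q + 1)) (hρ : 1 < ρ)
    (hB : Box n ρ p q ∨ Box n ρ q p) :
    ¬ ∃ u v : EuclideanSpace ℝ (Fin n) → ℝ, IsPositiveEntireSolution n p q u v := by
  rintro ⟨u, v, hs⟩
  rcases hB with hB | hB
  · exact no_solution_box hn hp hq hpq hsub hρ hB hs
  · refine no_solution_box hn hq hp (by linarith [mul_comm p q]) (by linarith) hρ hB hs.swap

end Vale.Agent.Results.P100.A_double_root
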