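import Vale.Agent.Lib.P100.WClean

/-!
# P100: the Hénon-Lane-Emden system with real weights `A, B` of any sign, every dimension `n ≥ 5`.

No positive entire solution (the exact solution class of the problem) in an explicit region of
`(p, q)`, for all real `A, B`: (1) `p < (n+2+3 min(A,0))/(n-2)`, `q < (n+2+3 min(B,0))/(n-2)`;
(2) subcritical parameters satisfying the condition `Good` for some `g > 0`.
Proof: a pointwise closed-form Bochner certificate with three extra fields `s ξ`, `t ξ`, `|ξ|² ξ`,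
`ξ = x/|x|²`, weight `u^a v^a`, and a cut-off argument.
-/

open scoped BigOperators
open InnerProductSpace Laplacian

noncomputable section

namespace Vale.Agent.Results.P100.A_henon

open Vale.Agent.Lib.P100 Vale.Agent.Lib.P100.ClosedForm Vale.Agent.Lib.P100.WCert

/-- A positive entire solution, exactly as in the problem file: `u, v` continuous and positive on
`ℝⁿ`, `C²` off the origin, `-Δu = |x|^A v^p`, `-Δv = |x|^B u^q` off the origin. -/
structure IsPositiveEntireSolution (n : ℕ) (A B p q : ℝ) (u v : EuclideanSpace ℝ (Fin n) → ℝ) :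
    Prop where
  ucont : Continuous u
  vcont : Continuous v
  upos : ∀ x, 0 < u x
  vpos : ∀ x, 0 < v x
  uC2 : ContDiffOn ℝ 2 u {0}ᶜ
  vC2 : ContDiffOn ℝ 2 v {0}ᶜ
  ueq : ∀ x, x ≠ 0 → - Δ u x = ‖x‖ ^ A * v x ^ p
  veq : ∀ x, x ≠ 0 → - Δ v x = ‖x‖ ^ B * u x ^ q

/-- The constant `(n+1)(n-2)/(n+2)`. -/
def cN (n : ℝ) : ℝ := (n + 1) * (n - 2) / (n + 2)

/-- The constant `(n-3)/(n-2)`. -/
def aN (n : ℝ) : ℝ := (n - 3) / (n - 2)

/-- The condition on one equation `-Δu = |x|^A v^p`, with parameter `g > 0`. With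
`c = cN n`, `a = aN n`, `w = (a+p)/g`, `τ = 1-a`, `ρ = (c p - 1)/g`: it says `|c p - 1| < n g` and
either `A ≥ 0`, `τ < w`, `A w² < ((n+ρ)/c) (w-τ) (A+n-2)`,
or `A < 0`, `(-A) w² < ((n-ρ)/c) (w+τ) (A+n-2)`. -/
def Good (n A p g : ℝ) : Prop :=
  |cN n * p - 1| < n * g ∧
    ((0 ≤ A ∧ 1 - aN n < (aN n + p) / g ∧ A * ((aN n + p) / g) ^ 2
        < ((n + (cN n * p - 1) / g) / cN n) * ((aN n + p) / g - (1 - aN n)) * (A + n - 2))
      ∨ (A < 0 ∧ (-A) * ((aN n + p) / g) ^ 2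
        < ((n - (cN n * p - 1) / g) / cN n) * ((aN n + p) / g + (1 - aN n)) * (A + n - 2)))

theorem no_sol_of_cond {n : ℕ} (hn : 5 ≤ n) {A B p q g : ℝ} (hp : 0 < p) (hq : 0 < q)
    (hpq : 1 < p * q) (hg : 0 < g)
    (hsub : (n : ℝ) - 2 < ((n : ℝ) + A) / (p + 1) + ((n : ℝ) + B) / (q + 1))
    (h1 : Cond n p A g) (h2 : Cond n q B g⁻¹)
    {u v : EuclideanSpace ℝ (Fin n) → ℝ} (h : IsPositiveEntireSolution n A B p q u v) : False := by
  have hnR : (5 : ℝ) ≤ n := by exact_mod_cast hn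
  obtain ⟨c, c0, hc0, hcert⟩ := exists_wcertif_gen n p q A B g hnR hg hp hq h1 h2
  obtain ⟨lam, mu, hlam, hmu, ha, hb, hD⟩ := lam_mu_gen n p q A B hnR hp hq hpq hsub
  exact no_solution_of_wcert_gen_lap (by omega) hcert hc0 ha hb hlam hmu hD
    h.ucont h.vcont h.upos h.vpos h.uC2 h.vC2 h.ueq h.veq

/-- **Main theorem.** For `n ≥ 5`, real `A, B`, `p, q > 0`, `p q > 1`: no positive entire solution
(1) whenever `p < (n+2+3 min(A,0))/(n-2)` and `q < (n+2+3 min(B,0))/(n-2)`;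
(2) whenever the parameters are subcritical and `Good n A p g`, `Good n B q g⁻¹` for some `g > 0`. -/
theorem result :
    (∀ (n : ℕ) (A B p q : ℝ), 5 ≤ n → 0 < p → 0 < q → 1 < p * q →
      p < ((n : ℝ) + 2 + 3 * min A 0) / ((n : ℝ) - 2) →
      q < ((n : ℝ) + 2 + 3 * min B 0) / ((n : ℝ) - 2) →
      ∀ u v : EuclideanSpace ℝ (Fin n) → ℝ, ¬ IsPositiveEntireSolution n A B p q u v) ∧
    (∀ (n : ℕ) (A B p q g : ℝ), 5 ≤ n → 0 < p → 0 < q → 1 < p * q → 0 < g →
      (n : ℝ) - 2 < ((n : ℝ) + A) / (p + 1) + ((n : ℝ) + B) / (q + 1) →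
      Good n A p g → Good n B q g⁻¹ →
      ∀ u v : EuclideanSpace ℝ (Fin n) → ℝ, ¬ IsPositiveEntireSolution n A B p q u v) := by
  constructor
  · intro n A B p q hn hp hq hpq hp2 hq2 u v h
    have hnR : (5 : ℝ) ≤ n := by exact_mod_cast hn
    refine no_sol_of_cond hn hp hq hpq one_pos
      (subcritical_clean n p q A B hnR hp hq hp2 hq2)
      (cond_clean n p A hnR hp hp2) ?_ h
    rw [inv_one]
    exact cond_clean n q B hnR hq hq2
  · intro n A B p q g hn hp hq hpq hg hsub h1 h2 u v h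
    exact no_sol_of_cond hn hp hq hpq hg hsub h1 h2 h

end Vale.Agent.Results.P100.A_henon
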