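import Vale.Agent.Lib.P100.NegMain

/-!
# P100: the Hénon-Lane-Emden system with equal negative weights `A = B ∈ (-2, 0)`, every `n ≥ 4`.

With `m = 2 (n + A) / (2 + A)` the critical hyperbola of the weighted system is exactly
`m/(p+1) + m/(q+1) = m - 2`, that is `X Y = m²` with `X = (m-2) p - 2`, `Y = (m-2) q - 2`.
No positive entire solution (exact class of the problem) if `5 ≤ m`, `X, Y > 0` and
`X Y + (X-Y)²/(X Y) < m²`, or if `|c p - 1| |c q - 1| < m²`, `c = (m+1)(m-2)/(m+2)`.
Proof: the pointwise identity behind this is the Bochner formula for the conformal metric `|x|^A dx²`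
with dimension parameter `m`: a pointwise certificate in the real dimension `m` transfers to the
weighted system in dimension `n`, with the weight `|x|^(-A) u^a v^a`; then a cut-off argument.
-/

open scoped BigOperators
open InnerProductSpace Laplacian

noncomputable section

namespace Vale.Agent.Results.P100.A_negweights

open Vale.Agent.Lib.P100

/-- A positive entire solution of the system with the same weight in both equations, exactly as in the
problem file with `A = B`: `u, v` continuous and positive on `ℝⁿ`, `C²` off the origin,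
`-Δu = |x|^A v^p`, `-Δv = |x|^A u^q` off the origin. -/
structure IsPositiveEntireSolution (n : ℕ) (A p q : ℝ) (u v : EuclideanSpace ℝ (Fin n) → ℝ) :
    Prop where
  ucont : Continuous u
  vcont : Continuous v
  upos : ∀ x, 0 < u x
  vpos : ∀ x, 0 < v x
  uC2 : ContDiffOn ℝ 2 u {0}ᶜ
  vC2 : ContDiffOn ℝ 2 v {0}ᶜ
  ueq : ∀ x, x ≠ 0 → - Δ u x = ‖x‖ ^ A * v x ^ p
  veq : ∀ x, x ≠ 0 → - Δ v x = ‖x‖ ^ A * u x ^ q

/-- **Main theorem.** -/
theorem result (n : ℕ) (A p q m : ℝ) (hn : 4 ≤ n) (hA2 : -2 < A) (hA : A < 0) (hp : 0 < p)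
    (hq : 0 < q) (hpq : 1 < p * q) (hm : m = 2 * ((n : ℝ) + A) / (2 + A))
    (hreg : (5 ≤ m ∧ 0 < (m - 2) * p - 2 ∧ 0 < (m - 2) * q - 2 ∧
        ((m - 2) * p - 2) * ((m - 2) * q - 2)
          + ((m - 2) * p - 2 - ((m - 2) * q - 2)) ^ 2 / (((m - 2) * p - 2) * ((m - 2) * q - 2))
          < m ^ 2) ∨
      |(m + 1) * (m - 2) / (m + 2) * p - 1| * |(m + 1) * (m - 2) / (m + 2) * q - 1| < m ^ 2)
    (u v : EuclideanSpace ℝ (Fin n) → ℝ) : ¬ IsPositiveEntireSolution n A p q u v := by
  intro h
  rcases hreg with ⟨hm5, hx, hy, hc⟩ | hr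
  · exact no_solution_neg_clean_m5 hn hA hA2 hp hq hpq hm hm5 hx hy hc h.ucont h.vcont h.upos h.vpos
      h.uC2 h.vC2 h.ueq h.veq
  · exact no_solution_neg0 hn hA hA2 hp hq hpq hm hr h.ucont h.vcont h.upos h.vpos h.uC2
      h.vC2 h.ueq h.veq

end Vale.Agent.Results.P100.A_negweights
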