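import Vale.Agent.Lib.P100.AB.V1Main

/-!
# P100: the Lane-Emden system has no positive solution outside a strip of fixed width.

For every `n >= 9` and all `p, q > 0` with `p q > 1`: with `alpha = 2 (p + 1) / (p q - 1)`,
`beta = 2 (q + 1) / (p q - 1)` (subcriticality is `alpha + beta > n - 2`), if
`alpha + beta >= n - 2 + 1/5` there is no positive solution of `-Δu = v^p`, `-Δv = u^q`
in the exact class of the problem (continuous on `ℝⁿ`, `C²` off the origin, equations off the origin).

Proof: the integral identity with the weight `u^a v^b`, with unequal exponents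
`a = 1 - 2 d / (1 + t^2)`, `b = 1 - 2 d t^2 / (1 + t^2)`, `d = 1/(n-2)`, `t = (q+1)/(p+1)`,
and an explicit closed-form pointwise sum of squares.
-/

open InnerProductSpace Laplacian

namespace Vale.Agent.Results.P100.A_strip

/-- **Lane-Emden, every dimension `n >= 9`, up to a strip of width `1/5`.** -/
theorem result {n : ℕ} (hn : 9 ≤ n) {p q : ℝ} (hp : 0 < p) (hq : 0 < q) (hpq : 1 < p * q)
    (hsum : (n : ℝ) - 2 + 1 / 5 ≤ 2 * (p + 1) / (p * q - 1) + 2 * (q + 1) / (p * q - 1))
    (u v : EuclideanSpace ℝ (Fin n) → ℝ) (hucont : Continuous u) (hvcont : Continuous v)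
    (hupos : ∀ x, 0 < u x) (hvpos : ∀ x, 0 < v x)
    (hu : ContDiffOn ℝ 2 u {0}ᶜ) (hv : ContDiffOn ℝ 2 v {0}ᶜ)
    (hpdeU : ∀ x, x ≠ 0 → - Δ u x = v x ^ p)
    (hpdeV : ∀ x, x ≠ 0 → - Δ v x = u x ^ q) : False := by
  have hw : 0 < p * q - 1 := by linarith
  have h3 : ((n : ℝ) - 2 + 1 / 5) * (p * q - 1) ≤ 2 * (p + q + 2) := by
    have e : 2 * (p + 1) / (p * q - 1) + 2 * (q + 1) / (p * q - 1)
        = 2 * (p + q + 2) / (p * q - 1) := by
      rw [← add_div]; ring
    rw [e, le_div_iff₀ hw] at hsum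
    exact hsum
  rcases le_total q p with hqp | hpq'
  · exact Vale.Agent.Lib.P100.AB.V1.no_solution_core hn hp hq hqp hpq h3
      hucont hvcont hupos hvpos hu hv hpdeU hpdeV
  · refine Vale.Agent.Lib.P100.AB.V1.no_solution_core hn hq hp hpq' (by linarith) ?_
      hvcont hucont hvpos hupos hv hu hpdeV hpdeU
    have e : q * p - 1 = p * q - 1 := by ring
    rw [e]
    linarith

end Vale.Agent.Results.P100.A_strip
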