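import Vale.Agent.Lib.P100.AB.W5Main

/-!
# P100: a uniform strip, in every dimension and for all ratios of the exponents.

With `a = 2 (p + 1) / (p q - 1)` and `b = 2 (q + 1) / (p q - 1)` the unweighted system is subcritical iff
`a + b > n - 2`.  For equal weights `A = B` in `(-2, 0)` put `m = 2 (n + A) / (2 + A)`; the subcritical
condition is then `a + b > m - 2`.  We prove nonexistence as soon as `a + b ≥ n - 2 + 1/4`, respectively
`a + b ≥ m - 2 + 1/4`.  One closed family of pointwise certificates does all the work.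
-/

open scoped BigOperators
open InnerProductSpace Laplacian

noncomputable section

namespace Vale.Agent.Results.P100.A_uniform5

open Vale.Agent.Lib.P100

/-- **Main theorem.** Part 1: `-Δu = v^p`, `-Δv = u^q`, every `n ≥ 5`, `p, q > 0`, `p q > 1`,
`a + b ≥ n - 2 + 1/4`: no `u, v` positive and continuous on `ℝⁿ`, `C²` off the origin, solving the system off
the origin.  Part 2: `-Δu = |x|^A v^p`, `-Δv = |x|^A u^q`, `-2 < A < 0`, `n ≥ 4` (more generally every `n` with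
`m = 2 (n + A) / (2 + A) > 4`), `a + b ≥ m - 2 + 1/4`: the same. -/
theorem result :
    (∀ (n : ℕ) (p q : ℝ), 5 ≤ n → 0 < p → 0 < q → 1 < p * q →
      (n : ℝ) - 2 + 1 / 4 ≤ 2 * (p + 1) / (p * q - 1) + 2 * (q + 1) / (p * q - 1) →
      ∀ u v : EuclideanSpace ℝ (Fin n) → ℝ, Continuous u → Continuous v →
        (∀ x, 0 < u x) → (∀ x, 0 < v x) →
        ContDiffOn ℝ 2 u {0}ᶜ → ContDiffOn ℝ 2 v {0}ᶜ →
        (∀ x, x ≠ 0 → - Δ u x = v x ^ p) → (∀ x, x ≠ 0 → - Δ v x = u x ^ q) → False) ∧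
    (∀ (n : ℕ) (A m p q : ℝ), -2 < A → A < 0 → m = 2 * ((n : ℝ) + A) / (2 + A) → 4 < m →
      0 < p → 0 < q → 1 < p * q →
      m - 2 + 1 / 4 ≤ 2 * (p + 1) / (p * q - 1) + 2 * (q + 1) / (p * q - 1) →
      ∀ u v : EuclideanSpace ℝ (Fin n) → ℝ, Continuous u → Continuous v →
        (∀ x, 0 < u x) → (∀ x, 0 < v x) →
        ContDiffOn ℝ 2 u {0}ᶜ → ContDiffOn ℝ 2 v {0}ᶜ →
        (∀ x, x ≠ 0 → - Δ u x = ‖x‖ ^ A * v x ^ p) →
        (∀ x, x ≠ 0 → - Δ v x = ‖x‖ ^ A * u x ^ q) → False) := by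
  refine ⟨?_, ?_⟩
  · intro n p q hn hp hq hpq hsum u v h1 h2 h3 h4 h5 h6 h7 h8
    exact AB.W5.no_solution5 hn hp hq hpq hsum h1 h2 h3 h4 h5 h6 h7 h8
  · intro n A m p q hA2 hA hm hm4 hp hq hpq hsum u v h1 h2 h3 h4 h5 h6 h7 h8
    exact AB.W5.no_solution_nab5 hA hA2 hm hm4 hp hq hpq hsum h1 h2 h3 h4 h5 h6 h7 h8

end Vale.Agent.Results.P100.A_uniform5
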