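import Vale.Agent.Lib.P100.LapForm
import Vale.Agent.Lib.P100.ClosedForm

open InnerProductSpace Laplacian
open Vale.Agent.Lib.P100

namespace Vale.Agent.Results.P100.B_allN_explicit

/-- In every dimension `n ≥ 5`, with `c = (n+1)(n-2)/(n+2)`: if `p, q > 0`, `p q > 1` and
`|c p - 1| |c q - 1| < n^2`, the Lane-Emden system has no positive solution in the class of the
problem file (continuous on `R^n`, `C^2` off the origin, equations off the origin). -/
theorem result (n : ℕ) (hn : 5 ≤ n) (p q : ℝ) (hp : 0 < p) (hq : 0 < q) (hpq : 1 < p * q)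
    (h : |((n : ℝ) + 1) * ((n : ℝ) - 2) / ((n : ℝ) + 2) * p - 1|
        * |((n : ℝ) + 1) * ((n : ℝ) - 2) / ((n : ℝ) + 2) * q - 1| < (n : ℝ) ^ 2)
    (u v : EuclideanSpace ℝ (Fin n) → ℝ)
    (huc : Continuous u) (hvc : Continuous v)
    (hup : ∀ x, 0 < u x) (hvp : ∀ x, 0 < v x)
    (hu : ContDiffOn ℝ 2 u {0}ᶜ) (hv : ContDiffOn ℝ 2 v {0}ᶜ)
    (h1 : ∀ x, x ≠ 0 → - Δ u x = v x ^ p)
    (h2 : ∀ x, x ≠ 0 → - Δ v x = u x ^ q) : False := by
  have hn5 : (5 : ℝ) ≤ n := by exact_mod_cast hn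
  have h' : |ClosedForm.cS n * p - 1| * |ClosedForm.cS n * q - 1| < (n : ℝ) ^ 2 := h
  obtain ⟨c, c0, hc0, hc⟩ := ClosedForm.exists_cert n p q (by linarith) h'
  have ha : 0 ≤ ClosedForm.aS n := by
    unfold ClosedForm.aS
    apply div_nonneg <;> linarith
  have hcl := ClosedForm.closure_ineq n p q (by linarith) hp hq hpq h'
  have hdet : 0 < p * q - 1 := by linarith
  have hdet' : p * q - 1 ≠ 0 := hdet.ne'
  set a := ClosedForm.aS n with hadef
  have hl : 0 ≤ a * (1 + q) / (p * q - 1) := by positivity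
  have hm : 0 ≤ a * (1 + p) / (p * q - 1) := by positivity
  have hn4 : 4 < n := by omega
  refine no_solution_of_cert_lap (lam := a * (1 + q) / (p * q - 1))
    (mu := a * (1 + p) / (p * q - 1)) hn4 hc hc0 ?_ ?_ hl hm ?_ huc hvc hup hvp hu hv h1 h2
  · have e : a * (1 + p) / (p * q - 1) * q - a * (1 + q) / (p * q - 1)
        = a * ((p * q - 1) / (p * q - 1)) := by ring
    rw [e, div_self hdet', mul_one]
  · have e : a * (1 + q) / (p * q - 1) * p - a * (1 + p) / (p * q - 1)
        = a * ((p * q - 1) / (p * q - 1)) := by ring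
    rw [e, div_self hdet', mul_one]
  · have e : 2 * (a * (1 + q) / (p * q - 1) + a * (1 + p) / (p * q - 1)) + 4
        = (2 * a * (p + q + 2) + 4 * (p * q - 1)) / (p * q - 1) := by
      rw [eq_div_iff hdet']
      have h3 : a * (1 + q) / (p * q - 1) * (p * q - 1) = a * (1 + q) :=
        div_mul_cancel₀ _ hdet'
      have h4 : a * (1 + p) / (p * q - 1) * (p * q - 1) = a * (1 + p) :=
        div_mul_cancel₀ _ hdet'
      linear_combination 2 * h3 + 2 * h4
    rw [e, lt_div_iff₀ hdet]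
    nlinarith

end Vale.Agent.Results.P100.B_allN_explicit
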